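import Vale.Agent.H17.PP.Fragments

/-!
The Park–Pham argument in the binomial model: if every cover of a family `K` of sets of size
at most `k < 2 ^ r` has cost at least `c` (with respect to `x`), then a random subset of density
`1 - (1 - 64 x) ^ r` fails to contain a member of `K` with probability at most `1 / (24 c)`.
-/

namespace Vale.Agent.H17.PP

open Finset Classical

variable {α : Type*} [DecidableEq α]

/-- Probability that a random subset of `s` of density `q` contains no member of `K`. -/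
noncomputable def failP (s : Finset α) (q : ℝ) (K : Finset (Finset α)) : ℝ :=
  ex s q (fun W => if ∃ T ∈ K, T ⊆ W then 0 else 1)

lemma failP_nonneg (s : Finset α) {q : ℝ} (h0 : 0 ≤ q) (h1 : q ≤ 1) (K : Finset (Finset α)) :
    0 ≤ failP s q K := by
  have h := ex_mono s h0 h1 (g := fun _ => 0)
    (h := fun W => if ∃ T ∈ K, T ⊆ W then (0 : ℝ) else 1)
    (fun W _ => by split_ifs <;> norm_num)
  rwa [ex_const] at h

lemma failP_le_one (s : Finset α) {q : ℝ} (h0 : 0 ≤ q) (h1 : q ≤ 1) (K : Finset (Finset α)) :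
    failP s q K ≤ 1 := by
  have h := ex_mono s h0 h1 (g := fun W => if ∃ T ∈ K, T ⊆ W then (0 : ℝ) else 1)
    (h := fun _ => 1) (fun W _ => by split_ifs <;> norm_num)
  rwa [ex_const] at h

lemma failP_eq_zero_of_empty_mem (s : Finset α) (q : ℝ) {K : Finset (Finset α)}
    (h : (∅ : Finset α) ∈ K) : failP s q K = 0 := by
  unfold failP
  have : (fun W : Finset α => if ∃ T ∈ K, T ⊆ W then (0 : ℝ) else 1) = fun _ => 0 := by
    funext W
    rw [if_pos ⟨∅, h, Finset.empty_subset _⟩]
  rw [this, ex_const]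

lemma base_case (s : Finset α) (q : ℝ) (K : Finset (Finset α)) (hK0 : ∀ T ∈ K, T.card ≤ 0)
    (c : ℝ) (hc : 0 ≤ c) (x : ℝ)
    (hcov : ∀ G : Finset (Finset α), (∀ S ∈ G, S ⊆ s) → (∀ T ∈ K, ∃ S ∈ G, S ⊆ T) →
      c ≤ ∑ S ∈ G, x ^ S.card) :
    c * failP s q K ≤ 0 := by
  rcases K.eq_empty_or_nonempty with hK | ⟨T, hT⟩
  · subst hK
    have h := hcov ∅ (by simp) (by simp)
    simp only [Finset.sum_empty] at h
    have hc0 : c = 0 := le_antisymm h hc
    rw [hc0, zero_mul]
  · have hT0 : T = ∅ := Finset.card_eq_zero.1 (Nat.le_zero.1 (hK0 T hT))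
    rw [failP_eq_zero_of_empty_mem s q (hT0 ▸ hT), mul_zero]

/-- **Park–Pham induction.** -/
theorem main_induction (s : Finset α) (x : ℝ) (hx0 : 0 ≤ x) (hx1 : 64 * x ≤ 1) :
    ∀ (r k : ℕ), k < 2 ^ r → ∀ K : Finset (Finset α), (∀ T ∈ K, T ⊆ s) →
      (∀ T ∈ K, T.card ≤ k) → ∀ c : ℝ, 0 ≤ c →
        (∀ G : Finset (Finset α), (∀ S ∈ G, S ⊆ s) → (∀ T ∈ K, ∃ S ∈ G, S ⊆ T) →
          c ≤ ∑ S ∈ G, x ^ S.card) →
        c * failP s (1 - (1 - 64 * x) ^ r) K ≤ 1 / 24 * (1 - (1 / 4) ^ k) := by
  intro r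
  induction r with
  | zero =>
    intro k hk K hKs hKk c hc hcov
    have hk0 : k = 0 := by simpa using hk
    subst hk0
    have h := base_case s (1 - (1 - 64 * x) ^ 0) K hKk c hc x hcov
    simpa using h
  | succ r ih =>
    intro k hk K hKs hKk c hc hcov
    rcases Nat.eq_zero_or_pos k with hk0 | hkpos
    · subst hk0
      have h := base_case s (1 - (1 - 64 * x) ^ (r + 1)) K hKk c hc x hcov
      simpa using h
    · set q := 64 * x with hq
      have hq0 : 0 ≤ q := by positivity
      set q' := 1 - (1 - q) ^ r with hq'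
      have hq'0 : 0 ≤ q' := by
        have : (1 - q) ^ r ≤ 1 := pow_le_one₀ (by linarith) (by linarith)
        linarith
      have hq'1 : q' ≤ 1 := by
        have : 0 ≤ (1 - q) ^ r := pow_nonneg (by linarith) r
        linarith
      have hq'' : 1 - (1 - q) ^ (r + 1) = 1 - (1 - q) * (1 - q') := by
        rw [hq', pow_succ]; ring
      have hfail : failP s (1 - (1 - q) ^ (r + 1)) K =
          ex s q (fun W₁ => ex s q' (fun W₂ =>
            if ∃ T ∈ K, T ⊆ W₁ ∪ W₂ then (0 : ℝ) else 1)) := by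
        rw [hq'']
        unfold failP
        exact (ex_union s q q' (fun W => if ∃ T ∈ K, T ⊆ W then (0 : ℝ) else 1)).symm
      rw [hfail, ← ex_const_mul]
      have hpt : ∀ W₁, W₁ ⊆ s →
          c * ex s q' (fun W₂ => if ∃ T ∈ K, T ⊆ W₁ ∪ W₂ then (0 : ℝ) else 1) ≤
            1 / 24 * (1 - (1 / 4) ^ (k / 2)) + ∑ U ∈ bigFrags s K k W₁, x ^ U.card := by
        intro W₁ _
        set K' := smallFrags s K k W₁ with hK'
        set b := ∑ U ∈ bigFrags s K k W₁, x ^ U.card with hb
        have hb0 : 0 ≤ b := Finset.sum_nonneg (fun U _ => pow_nonneg hx0 _)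
        have hK's : ∀ U ∈ K', U ⊆ s := fun U hU =>
          Finset.mem_powerset.1 (Finset.mem_filter.1 hU).1
        have hK'k : ∀ U ∈ K', U.card ≤ k / 2 := by
          intro U hU
          have := (Finset.mem_filter.1 hU).2.2
          omega
        have hk2 : k / 2 < 2 ^ r := by
          rw [pow_succ] at hk
          omega
        have hcov' : ∀ G : Finset (Finset α), (∀ S ∈ G, S ⊆ s) →
            (∀ U ∈ K', ∃ S ∈ G, S ⊆ U) → max 0 (c - b) ≤ ∑ S ∈ G, x ^ S.card := by
          intro G hGs hG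
          apply max_le (Finset.sum_nonneg (fun U _ => pow_nonneg hx0 _))
          have h1 : c ≤ ∑ S ∈ G ∪ bigFrags s K k W₁, x ^ S.card := by
            apply hcov
            · intro S hS
              rcases Finset.mem_union.1 hS with h | h
              · exact hGs S h
              · exact Finset.mem_powerset.1 (Finset.mem_filter.1 h).1
            · intro T hT
              obtain ⟨U, hU, hUT⟩ := exists_frag K W₁ hT
              have hUs : U ⊆ s := hUT.trans (hKs T hT)
              by_cases hbig : k < 2 * U.card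
              · exact ⟨U, Finset.mem_union_right _ (Finset.mem_filter.2
                  ⟨Finset.mem_powerset.2 hUs, hU, hbig⟩), hUT⟩
              · obtain ⟨S, hS, hSU⟩ := hG U (Finset.mem_filter.2
                  ⟨Finset.mem_powerset.2 hUs, hU, not_lt.1 hbig⟩)
                exact ⟨S, Finset.mem_union_left _ hS, hSU.trans hUT⟩
          have h2 : ∑ S ∈ G ∪ bigFrags s K k W₁, x ^ S.card ≤ ∑ S ∈ G, x ^ S.card + b := by
            have h3 := Finset.sum_union_inter (s₁ := G) (s₂ := bigFrags s K k W₁)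
              (f := fun S => x ^ S.card)
            have h4 : 0 ≤ ∑ S ∈ G ∩ bigFrags s K k W₁, x ^ S.card :=
              Finset.sum_nonneg (fun U _ => pow_nonneg hx0 _)
            linarith
          linarith
        have hIH := ih (k / 2) hk2 K' hK's hK'k (max 0 (c - b)) (le_max_left _ _) hcov'
        have hle : ex s q' (fun W₂ => if ∃ T ∈ K, T ⊆ W₁ ∪ W₂ then (0 : ℝ) else 1) ≤
            failP s q' K' := by
          unfold failP
          apply ex_mono s hq'0 hq'1
          intro W₂ _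
          by_cases h : ∃ U ∈ K', U ⊆ W₂
          · obtain ⟨U, hU, hUW⟩ := h
            have hfr : IsFrag K W₁ U := (Finset.mem_filter.1 hU).2.1
            obtain ⟨T', hT', hT'sub⟩ := hfr.exists_mem
            rw [if_pos ⟨T', hT', hT'sub.trans
              (Finset.union_subset_union (Finset.Subset.refl _) hUW)⟩, if_pos ⟨U, hU, hUW⟩]
          · rw [if_neg h]
            split_ifs <;> norm_num
        have hf0 := failP_nonneg s hq'0 hq'1 K'
        have hf1 := failP_le_one s hq'0 hq'1 K'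
        have hcmax : c ≤ max 0 (c - b) + b := by
          have := le_max_right 0 (c - b)
          linarith
        calc c * ex s q' (fun W₂ => if ∃ T ∈ K, T ⊆ W₁ ∪ W₂ then (0 : ℝ) else 1)
            ≤ c * failP s q' K' := mul_le_mul_of_nonneg_left hle hc
          _ ≤ (max 0 (c - b) + b) * failP s q' K' := mul_le_mul_of_nonneg_right hcmax hf0
          _ = max 0 (c - b) * failP s q' K' + b * failP s q' K' := by ring
          _ ≤ 1 / 24 * (1 - (1 / 4) ^ (k / 2)) + b * 1 :=
              add_le_add hIH (mul_le_mul_of_nonneg_left hf1 hb0)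
          _ = 1 / 24 * (1 - (1 / 4) ^ (k / 2)) + b := by ring
      have hnum : (1 : ℝ) / 24 * (1 - (1 / 4) ^ (k / 2)) + 2 ^ k / 8 ^ (k + 1) ≤
          1 / 24 * (1 - (1 / 4) ^ k) := by
        obtain ⟨m, rfl⟩ : ∃ m, k = m + 1 := ⟨k - 1, by omega⟩
        have h1 : (2 : ℝ) ^ (m + 1) / 8 ^ (m + 1 + 1) = 1 / 8 * (1 / 4) ^ (m + 1) := by
          rw [pow_succ (8 : ℝ) (m + 1), ← div_div, ← div_pow]
          norm_num
          ring
        have h2 : (1 / 4 : ℝ) ^ m ≤ (1 / 4) ^ ((m + 1) / 2) :=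
          pow_le_pow_of_le_one (by norm_num) (by norm_num) (by omega)
        have h3 : (1 / 4 : ℝ) ^ (m + 1) = (1 / 4) ^ m * (1 / 4) := pow_succ _ _
        rw [h1]
        linarith
      calc ex s q (fun W₁ => c * ex s q' (fun W₂ =>
            if ∃ T ∈ K, T ⊆ W₁ ∪ W₂ then (0 : ℝ) else 1))
          ≤ ex s q (fun W₁ => 1 / 24 * (1 - (1 / 4) ^ (k / 2)) +
              ∑ U ∈ bigFrags s K k W₁, x ^ U.card) := ex_mono s hq0 hx1 hpt
        _ = 1 / 24 * (1 - (1 / 4) ^ (k / 2)) +
              ex s q (fun W₁ => ∑ U ∈ bigFrags s K k W₁, x ^ U.card) := by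
            rw [ex_add, ex_const]
        _ ≤ 1 / 24 * (1 - (1 / 4) ^ (k / 2)) + 2 ^ k / 8 ^ (k + 1) := by
            have := frag_cost s K k hKk x hx0 hx1
            linarith
        _ ≤ 1 / 24 * (1 - (1 / 4) ^ k) := hnum

/-- **Park–Pham bound** (binomial model): if all members of `K` are subsets of `s` with at most
`k < 2 ^ r` elements, and every cover of `K` has cost at least `c > 0` with respect to `x`
(where `0 ≤ x ≤ 1/64`), then a random subset of `s` of density `1 - (1 - 64 x) ^ r` contains no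
member of `K` with probability at most `1 / (24 c)`. -/
theorem failP_le (s : Finset α) (x : ℝ) (hx0 : 0 ≤ x) (hx1 : 64 * x ≤ 1) (r k : ℕ)
    (hk : k < 2 ^ r) (K : Finset (Finset α)) (hKs : ∀ T ∈ K, T ⊆ s)
    (hKk : ∀ T ∈ K, T.card ≤ k) (c : ℝ) (hc : 0 < c)
    (hcov : ∀ G : Finset (Finset α), (∀ S ∈ G, S ⊆ s) → (∀ T ∈ K, ∃ S ∈ G, S ⊆ T) →
      c ≤ ∑ S ∈ G, x ^ S.card) :
    failP s (1 - (1 - 64 * x) ^ r) K ≤ 1 / (24 * c) := by
  have h := main_induction s x hx0 hx1 r k hk K hKs hKk c hc.le hcov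
  have h4 : (0 : ℝ) ≤ (1 / 4) ^ k := by positivity
  rw [le_div_iff₀ (by positivity)]
  nlinarith

end Vale.Agent.H17.PP
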