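import Vale.Agent.H17.PP.Weights

/-!
Minimum fragments of a family of sets with respect to a set `W`, and the bound on the expected
cost of the large minimum fragments (the counting step of the Park–Pham argument).
-/

namespace Vale.Agent.H17.PP

open Finset Classical

variable {α : Type*} [DecidableEq α]

/-- `U` is a minimum fragment of the family `K` with respect to `W`: for some `T ∈ K`, the set
`U` is `T' \ W` for a member `T' ⊆ W ∪ T` of `K` minimizing `|T' \ W|`. -/
def IsFrag (K : Finset (Finset α)) (W U : Finset α) : Prop :=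
  ∃ T ∈ K, ∃ T' ∈ K, T' ⊆ W ∪ T ∧ U = T' \ W ∧
    ∀ T'' ∈ K, T'' ⊆ W ∪ T → U.card ≤ (T'' \ W).card

lemma exists_frag (K : Finset (Finset α)) (W : Finset α) {T : Finset α} (hT : T ∈ K) :
    ∃ U, IsFrag K W U ∧ U ⊆ T := by
  obtain ⟨T', hT', hmin⟩ := Finset.exists_min_image (K.filter (fun T' => T' ⊆ W ∪ T))
    (fun T' => (T' \ W).card) ⟨T, Finset.mem_filter.2 ⟨hT, Finset.subset_union_right⟩⟩
  rw [Finset.mem_filter] at hT'
  refine ⟨T' \ W, ⟨T, hT, T', hT'.1, hT'.2, rfl,
    fun T'' h1 h2 => hmin T'' (Finset.mem_filter.2 ⟨h1, h2⟩)⟩, ?_⟩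
  intro x hx
  rw [Finset.mem_sdiff] at hx
  rcases Finset.mem_union.1 (hT'.2 hx.1) with h | h
  · exact absurd h hx.2
  · exact h

lemma IsFrag.disjoint {K : Finset (Finset α)} {W U : Finset α} (h : IsFrag K W U) :
    Disjoint U W := by
  obtain ⟨T, _, T', _, _, rfl, _⟩ := h
  exact Finset.sdiff_disjoint

lemma IsFrag.exists_mem {K : Finset (Finset α)} {W U : Finset α} (h : IsFrag K W U) :
    ∃ T' ∈ K, T' ⊆ W ∪ U := by
  obtain ⟨T, _, T', hT', _, rfl, _⟩ := h
  refine ⟨T', hT', ?_⟩
  intro x hx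
  by_cases hxW : x ∈ W
  · exact Finset.mem_union_left _ hxW
  · exact Finset.mem_union_right _ (Finset.mem_sdiff.2 ⟨hx, hxW⟩)

/-- A member of `K` contained in `Z`, if there is one. -/
noncomputable def pick (K : Finset (Finset α)) (Z : Finset α) : Finset α :=
  if h : ∃ T ∈ K, T ⊆ Z then h.choose else ∅

lemma pick_spec {K : Finset (Finset α)} {Z : Finset α} (h : ∃ T ∈ K, T ⊆ Z) :
    pick K Z ∈ K ∧ pick K Z ⊆ Z := by
  unfold pick
  rw [dif_pos h]
  exact h.choose_spec

lemma pick_card_le {K : Finset (Finset α)} {k : ℕ} (hk : ∀ T ∈ K, T.card ≤ k) (Z : Finset α) :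
    (pick K Z).card ≤ k := by
  unfold pick
  split_ifs with h
  · exact hk _ h.choose_spec.1
  · simp

/-- A minimum fragment with respect to `W` is contained in the member of `K` picked inside
`W ∪ U`. -/
lemma IsFrag.subset_pick {K : Finset (Finset α)} {W U : Finset α} (h : IsFrag K W U) :
    U ⊆ pick K (W ∪ U) := by
  have hex := h.exists_mem
  obtain ⟨hpK, hpZ⟩ := pick_spec hex
  obtain ⟨T, _, T', _, hT'sub, hU, hmin⟩ := h
  have hUT : U ⊆ T := by
    intro x hx
    rw [hU, Finset.mem_sdiff] at hx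
    rcases Finset.mem_union.1 (hT'sub hx.1) with h | h
    · exact absurd h hx.2
    · exact h
  have h1 : pick K (W ∪ U) ⊆ W ∪ T :=
    hpZ.trans (Finset.union_subset_union (Finset.Subset.refl _) hUT)
  have h2 : U.card ≤ (pick K (W ∪ U) \ W).card := hmin _ hpK h1
  have h3 : pick K (W ∪ U) \ W ⊆ U := by
    intro x hx
    rw [Finset.mem_sdiff] at hx
    rcases Finset.mem_union.1 (hpZ hx.1) with h | h
    · exact absurd h hx.2
    · exact h
  have h4 : pick K (W ∪ U) \ W = U := Finset.eq_of_subset_of_card_le h3 h2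
  intro y hy
  rw [← h4] at hy
  exact (Finset.mem_sdiff.1 hy).1

/-- The minimum fragments of `K` with respect to `W` that have more than `k / 2` elements. -/
noncomputable def bigFrags (s : Finset α) (K : Finset (Finset α)) (k : ℕ) (W : Finset α) :
    Finset (Finset α) :=
  s.powerset.filter (fun U => IsFrag K W U ∧ k < 2 * U.card)

/-- The minimum fragments of `K` with respect to `W` that have at most `k / 2` elements. -/
noncomputable def smallFrags (s : Finset α) (K : Finset (Finset α)) (k : ℕ) (W : Finset α) :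
    Finset (Finset α) :=
  s.powerset.filter (fun U => IsFrag K W U ∧ 2 * U.card ≤ k)

lemma sum_le_sum_of_injOn' {ι κ : Type*} [DecidableEq κ] (A : Finset ι) (B : Finset κ)
    (φ : ι → κ) (f : ι → ℝ) (g : κ → ℝ)
    (hφ : ∀ i ∈ A, φ i ∈ B) (hinj : ∀ i ∈ A, ∀ j ∈ A, φ i = φ j → i = j)
    (hg : ∀ j ∈ B, 0 ≤ g j) (hfg : ∀ i ∈ A, f i ≤ g (φ i)) :
    ∑ i ∈ A, f i ≤ ∑ j ∈ B, g j := by
  calc ∑ i ∈ A, f i ≤ ∑ i ∈ A, g (φ i) := Finset.sum_le_sum hfg
    _ = ∑ j ∈ A.image φ, g j := (Finset.sum_image hinj).symm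
    _ ≤ ∑ j ∈ B, g j := by
        apply Finset.sum_le_sum_of_subset_of_nonneg
        · intro j hj
          obtain ⟨i, hi, rfl⟩ := Finset.mem_image.1 hj
          exact hφ i hi
        · intro j hj _
          exact hg j hj

/-- **Cost of the large fragments.**  If all members of `K` have at most `k` elements, then for
a random subset `W` of `s` of density `64 x` the expected value of the sum of `x ^ |U|` over the
minimum fragments `U` with more than `k / 2` elements is at most `2 ^ k / 8 ^ (k + 1)`. -/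
theorem frag_cost (s : Finset α) (K : Finset (Finset α)) (k : ℕ) (hk : ∀ T ∈ K, T.card ≤ k)
    (x : ℝ) (hx0 : 0 ≤ x) (hx1 : 64 * x ≤ 1) :
    ex s (64 * x) (fun W => ∑ U ∈ bigFrags s K k W, x ^ U.card) ≤ 2 ^ k / 8 ^ (k + 1) := by
  set q := 64 * x with hq
  have hq0 : 0 ≤ q := by positivity
  have htarget : ∑ p ∈ s.powerset.sigma
      (fun Z => (pick K Z).powerset.filter (fun U => k < 2 * U.card)),
      wt s q p.1 * (1 / 64 : ℝ) ^ p.2.card ≤ 2 ^ k / 8 ^ (k + 1) := by
    rw [Finset.sum_sigma]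
    have hinner : ∀ Z ∈ s.powerset,
        ∑ U ∈ (pick K Z).powerset.filter (fun U => k < 2 * U.card),
          wt s q Z * (1 / 64 : ℝ) ^ U.card ≤ wt s q Z * (2 ^ k / 8 ^ (k + 1)) := by
      intro Z _
      rw [← Finset.mul_sum]
      apply mul_le_mul_of_nonneg_left _ (wt_nonneg s hq0 hx1 Z)
      calc ∑ U ∈ (pick K Z).powerset.filter (fun U => k < 2 * U.card), (1 / 64 : ℝ) ^ U.card
          ≤ ∑ U ∈ (pick K Z).powerset.filter (fun U => k < 2 * U.card),
              (1 / 8 : ℝ) ^ (k + 1) := by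
            apply Finset.sum_le_sum
            intro U hU
            have hkU : k + 1 ≤ 2 * U.card := (Finset.mem_filter.1 hU).2
            calc (1 / 64 : ℝ) ^ U.card = (1 / 8 : ℝ) ^ (2 * U.card) := by
                  rw [pow_mul]; norm_num
              _ ≤ (1 / 8 : ℝ) ^ (k + 1) :=
                  pow_le_pow_of_le_one (by norm_num) (by norm_num) hkU
        _ = (((pick K Z).powerset.filter (fun U => k < 2 * U.card)).card : ℝ) *
              (1 / 8 : ℝ) ^ (k + 1) := by
            rw [Finset.sum_const, nsmul_eq_mul]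
        _ ≤ (2 : ℝ) ^ k * (1 / 8 : ℝ) ^ (k + 1) := by
            apply mul_le_mul_of_nonneg_right _ (by positivity)
            have h1 : ((pick K Z).powerset.filter (fun U => k < 2 * U.card)).card ≤
                2 ^ (pick K Z).card := by
              rw [← Finset.card_powerset]
              exact Finset.card_filter_le _ _
            have h2 : 2 ^ (pick K Z).card ≤ 2 ^ k :=
              Nat.pow_le_pow_right (by norm_num) (pick_card_le hk Z)
            exact_mod_cast h1.trans h2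
        _ = 2 ^ k / 8 ^ (k + 1) := by
            rw [one_div, inv_pow, div_eq_mul_inv]
    calc ∑ Z ∈ s.powerset, ∑ U ∈ (pick K Z).powerset.filter (fun U => k < 2 * U.card),
          wt s q Z * (1 / 64 : ℝ) ^ U.card
        ≤ ∑ Z ∈ s.powerset, wt s q Z * (2 ^ k / 8 ^ (k + 1)) := Finset.sum_le_sum hinner
      _ = ex s q (fun _ => 2 ^ k / 8 ^ (k + 1)) := rfl
      _ = 2 ^ k / 8 ^ (k + 1) := ex_const s q _
  unfold ex
  simp_rw [Finset.mul_sum]
  rw [Finset.sum_sigma']
  refine le_trans (sum_le_sum_of_injOn' _ _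
    (fun p => (⟨p.1 ∪ p.2, p.2⟩ : (_ : Finset α) × Finset α)) _
    (fun p => wt s q p.1 * (1 / 64 : ℝ) ^ p.2.card) ?_ ?_ ?_ ?_) htarget
  · rintro ⟨W, U⟩ hp
    rw [Finset.mem_sigma] at hp ⊢
    obtain ⟨hW, hU⟩ := hp
    simp only [bigFrags, Finset.mem_filter, Finset.mem_powerset] at hU hW
    simp only [Finset.mem_filter, Finset.mem_powerset]
    exact ⟨Finset.union_subset hW hU.1, hU.2.1.subset_pick, hU.2.2⟩
  · rintro ⟨W, U⟩ hp ⟨W', U'⟩ hp' heq
    rw [Finset.mem_sigma] at hp hp'
    simp only [bigFrags, Finset.mem_filter, Finset.mem_powerset] at hp hp'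
    simp only [Sigma.mk.injEq] at heq
    obtain ⟨h1, h2⟩ := heq
    have h2' : U = U' := eq_of_heq h2
    subst h2'
    have hd : Disjoint W U := hp.2.2.1.disjoint.symm
    have hd' : Disjoint W' U := hp'.2.2.1.disjoint.symm
    have hW : W = W' := by
      rw [← Finset.union_sdiff_cancel_right hd, h1, Finset.union_sdiff_cancel_right hd']
    subst hW
    rfl
  · rintro ⟨Z, U⟩ _
    exact mul_nonneg (wt_nonneg s hq0 hx1 Z) (by positivity)
  · rintro ⟨W, U⟩ hp
    rw [Finset.mem_sigma] at hp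
    simp only [bigFrags, Finset.mem_filter, Finset.mem_powerset] at hp
    have hw := wt_union s q hp.2.1 hp.2.2.1.disjoint
    have hxq : x ^ U.card = q ^ U.card * (1 / 64 : ℝ) ^ U.card := by
      rw [← mul_pow, hq]
      congr 1
      ring
    show wt s q W * x ^ U.card ≤ wt s q (W ∪ U) * (1 / 64 : ℝ) ^ U.card
    have h1q : (1 - q) ^ U.card ≤ 1 := pow_le_one₀ (by linarith) (by linarith)
    have hwn : 0 ≤ wt s q (W ∪ U) := wt_nonneg s hq0 hx1 _
    have h64 : (0 : ℝ) ≤ (1 / 64 : ℝ) ^ U.card := by positivity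
    calc wt s q W * x ^ U.card = (wt s q W * q ^ U.card) * (1 / 64 : ℝ) ^ U.card := by
          rw [hxq]; ring
      _ = wt s q (W ∪ U) * (1 - q) ^ U.card * (1 / 64 : ℝ) ^ U.card := by rw [hw]
      _ ≤ wt s q (W ∪ U) * 1 * (1 / 64 : ℝ) ^ U.card := by
          apply mul_le_mul_of_nonneg_right _ h64
          exact mul_le_mul_of_nonneg_left h1q hwn
      _ = wt s q (W ∪ U) * (1 / 64 : ℝ) ^ U.card := by ring

end Vale.Agent.H17.PP
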