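import Mathlib

/-!
Product measures on the subsets of a finite set: weights, expectations, and the fact that the
union of two independent random subsets is again a random subset of the same kind.
-/

namespace Vale.Agent.H17.PP

open Finset

variable {α : Type*} [DecidableEq α]

/-- Weight of `W` in the product measure on subsets of `s` in which every element of `s` is
present independently with probability `q`. -/
noncomputable def wt (s : Finset α) (q : ℝ) (W : Finset α) : ℝ :=
  ∏ x ∈ s, if x ∈ W then q else 1 - q

/-- Expectation of `g` under the product measure with density `q` on the subsets of `s`. -/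
noncomputable def ex (s : Finset α) (q : ℝ) (g : Finset α → ℝ) : ℝ :=
  ∑ W ∈ s.powerset, wt s q W * g W

lemma wt_nonneg (s : Finset α) {q : ℝ} (h0 : 0 ≤ q) (h1 : q ≤ 1) (W : Finset α) :
    0 ≤ wt s q W := by
  unfold wt
  apply Finset.prod_nonneg
  intro x _
  split_ifs
  · exact h0
  · linarith

lemma wt_insert_of_notMem {s : Finset α} {a : α} (ha : a ∉ s) (q : ℝ) {W : Finset α}
    (hW : a ∉ W) : wt (insert a s) q W = (1 - q) * wt s q W := by
  unfold wt
  rw [Finset.prod_insert ha, if_neg hW]

lemma wt_insert_insert {s : Finset α} {a : α} (ha : a ∉ s) (q : ℝ) (W : Finset α) :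
    wt (insert a s) q (insert a W) = q * wt s q W := by
  unfold wt
  rw [Finset.prod_insert ha, if_pos (Finset.mem_insert_self a W)]
  congr 1
  apply Finset.prod_congr rfl
  intro x hx
  have hxa : x ≠ a := fun h => ha (h ▸ hx)
  simp [Finset.mem_insert, hxa]

lemma ex_insert {s : Finset α} {a : α} (ha : a ∉ s) (q : ℝ) (g : Finset α → ℝ) :
    ex (insert a s) q g = (1 - q) * ex s q g + q * ex s q (fun W => g (insert a W)) := by
  unfold ex
  rw [Finset.sum_powerset_insert ha, Finset.mul_sum, Finset.mul_sum]
  congr 1
  · apply Finset.sum_congr rfl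
    intro W hW
    rw [wt_insert_of_notMem ha q (fun h => ha (Finset.mem_powerset.1 hW h))]
    ring
  · apply Finset.sum_congr rfl
    intro W _
    rw [wt_insert_insert ha]
    ring

lemma ex_add (s : Finset α) (q : ℝ) (g h : Finset α → ℝ) :
    ex s q (fun W => g W + h W) = ex s q g + ex s q h := by
  unfold ex
  rw [← Finset.sum_add_distrib]
  apply Finset.sum_congr rfl
  intros
  ring

lemma ex_const_mul (s : Finset α) (q : ℝ) (c : ℝ) (g : Finset α → ℝ) :
    ex s q (fun W => c * g W) = c * ex s q g := by
  unfold ex
  rw [Finset.mul_sum]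
  apply Finset.sum_congr rfl
  intros
  ring

lemma ex_const (s : Finset α) (q : ℝ) (c : ℝ) : ex s q (fun _ => c) = c := by
  induction s using Finset.induction_on with
  | empty => simp [ex, wt]
  | insert a s ha ih =>
    rw [ex_insert ha, ih]
    ring

lemma ex_mono (s : Finset α) {q : ℝ} (h0 : 0 ≤ q) (h1 : q ≤ 1) {g h : Finset α → ℝ}
    (hgh : ∀ W, W ⊆ s → g W ≤ h W) : ex s q g ≤ ex s q h := by
  unfold ex
  apply Finset.sum_le_sum
  intro W hW
  exact mul_le_mul_of_nonneg_left (hgh W (Finset.mem_powerset.1 hW)) (wt_nonneg s h0 h1 W)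

lemma ex_one (s : Finset α) (g : Finset α → ℝ) : ex s 1 g = g s := by
  induction s using Finset.induction_on generalizing g with
  | empty => simp [ex, wt]
  | insert a s ha ih =>
    rw [ex_insert ha, ih, ih]
    ring

lemma ex_zero (s : Finset α) (g : Finset α → ℝ) : ex s 0 g = g ∅ := by
  induction s using Finset.induction_on generalizing g with
  | empty => simp [ex, wt]
  | insert a s ha ih =>
    rw [ex_insert ha, ih, ih]
    ring

/-- The union of two independent random subsets with densities `q₁`, `q₂` is a random subset with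
density `1 - (1 - q₁) (1 - q₂)`. -/
theorem ex_union (s : Finset α) (q₁ q₂ : ℝ) (f : Finset α → ℝ) :
    ex s q₁ (fun W₁ => ex s q₂ (fun W₂ => f (W₁ ∪ W₂))) =
      ex s (1 - (1 - q₁) * (1 - q₂)) f := by
  induction s using Finset.induction_on generalizing f with
  | empty => simp [ex, wt]
  | insert a s ha ih =>
    rw [ex_insert ha, ex_insert ha]
    simp only [ex_insert ha, Finset.union_insert, Finset.insert_union, Finset.insert_idem]
    simp only [ex_add, ex_const_mul]
    rw [ih f, ih (fun W => f (insert a W))]
    ring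

/-- Moving a set `U ⊆ s` disjoint from `W` into `W` changes the weight by the factor
`(q / (1 - q)) ^ |U|`. -/
lemma wt_union (s : Finset α) (q : ℝ) {W U : Finset α} (hU : U ⊆ s) (hd : Disjoint U W) :
    wt s q W * q ^ U.card = wt s q (W ∪ U) * (1 - q) ^ U.card := by
  unfold wt
  rw [← Finset.prod_sdiff hU, ← Finset.prod_sdiff hU]
  have h1 : ∏ x ∈ U, (if x ∈ W then q else 1 - q) = (1 - q) ^ U.card := by
    rw [← Finset.prod_const]
    apply Finset.prod_congr rfl
    intro x hx
    rw [if_neg (Finset.disjoint_left.1 hd hx)]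
  have h2 : ∏ x ∈ U, (if x ∈ W ∪ U then q else 1 - q) = q ^ U.card := by
    rw [← Finset.prod_const]
    apply Finset.prod_congr rfl
    intro x hx
    rw [if_pos (Finset.mem_union_right _ hx)]
  have h3 : ∏ x ∈ s \ U, (if x ∈ W ∪ U then q else 1 - q) =
      ∏ x ∈ s \ U, (if x ∈ W then q else 1 - q) := by
    apply Finset.prod_congr rfl
    intro x hx
    have hxU : x ∉ U := (Finset.mem_sdiff.1 hx).2
    simp [Finset.mem_union, hxU]
  rw [h1, h2, h3]
  ring

/-- Closed form of the weight of a subset `W` of `s`. -/
lemma wt_eq_pow (s : Finset α) (q : ℝ) {W : Finset α} (hW : W ⊆ s) :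
    wt s q W = q ^ W.card * (1 - q) ^ (s.card - W.card) := by
  unfold wt
  rw [Finset.prod_ite, Finset.prod_const, Finset.prod_const]
  have h1 : s.filter (fun x => x ∈ W) = W := by
    ext x
    simp only [Finset.mem_filter]
    exact ⟨fun h => h.2, fun h => ⟨hW h, h⟩⟩
  have h2 : s.filter (fun x => x ∉ W) = s \ W := by
    ext x
    simp [Finset.mem_filter, Finset.mem_sdiff]
  rw [h1, h2, Finset.card_sdiff_of_subset hW]

end Vale.Agent.H17.PP
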